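import Vale.Agent.P207.N3.Spec

/-!
# P207, line N3: `LeafA` = `Leaf` without the density fields; `dense_leaf` from the other fields

`LeafA.toLeaf` : the fields `dense_orbit` and `exists_axis` (and the existence of one nontrivial
element of `Γ`) give `dense_leaf`.
-/

open Set Filter Topology Metric MeasureTheory
open scoped ContDiff

noncomputable section

namespace Vale.Agent.P207.N3

/-- All the fields of `Leaf` except `dense_orbit`, `dense_leaf`, `exists_axis`. -/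
structure LeafA (Γ X B : Type) [Group Γ] [MetricSpace X] [ProperSpace X] [MulAction Γ X]
    [IsIsometricSMul Γ X] [TopologicalSpace B] [CompactSpace B] [T2Space B] [MulAction Γ B]
    [ContinuousConstSMul Γ B] where
  nonempty : Nonempty X
  /-- the frame flow -/
  φ : ℝ → X → X
  φ_zero : ∀ x, φ 0 x = x
  φ_add : ∀ s t x, φ (s + t) x = φ s (φ t x)
  φ_cont : Continuous fun p : ℝ × X => φ p.1 p.2
  φ_smul : ∀ (g : Γ) t x, φ t (g • x) = g • φ t x
  /-- change of the two last vectors of the frame -/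
  rot : O2 → X → X
  rot_one : ∀ x, rot 1 x = x
  rot_mul : ∀ a b x, rot (a * b) x = rot b (rot a x)
  rot_cont : ∀ a, Continuous (rot a)
  rot_smul : ∀ (g : Γ) a x, rot a (g • x) = g • rot a x
  rot_φ : ∀ a t x, rot a (φ t x) = φ t (rot a x)
  /-- `v ↦ -v` -/
  flip : X → X
  flip_flip : ∀ x, flip (flip x) = x
  flip_cont : Continuous flip
  flip_smul : ∀ (g : Γ) x, flip (g • x) = g • flip x
  flip_φ : ∀ t x, flip (φ t x) = φ (-t) (flip x)
  flip_rot : ∀ a x, flip (rot a x) = rot a (flip x)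
  /-- the end point in the past -/
  em : X → B
  em_cont : Continuous em
  em_smul : ∀ (g : Γ) x, em (g • x) = g • em x
  em_φ : ∀ t x, em (φ t x) = em x
  em_rot : ∀ a x, em (rot a x) = em x
  /-- the end point in the future -/
  ep : X → B
  ep_flip : ∀ x, ep x = em (flip x)
  em_ne_ep : ∀ x, em x ≠ ep x
  /-- the level: Busemann function of `em x` at the foot point of `x` -/
  lv : X → ℝ
  lv_cont : Continuous lv
  lv_φ : ∀ t x, lv (φ t x) = lv x + t
  lv_rot : ∀ a x, lv (rot a x) = lv x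
  lv_smul : ∀ (g : Γ) x y, em x = em y → lv (g • x) - lv (g • y) = lv x - lv y
  /-- Hopf coordinates -/
  exists_frame : ∀ ξ η, ξ ≠ η → ∀ t, ∃ x, em x = ξ ∧ ep x = η ∧ lv x = t
  frame_unique : ∀ x y, em x = em y → ep x = ep y → lv x = lv y → ∃ a, y = rot a x
  hopf_proper : ∀ K : Set (B × B), IsCompact K → (∀ p ∈ K, p.1 ≠ p.2) → ∀ c : ℝ,
    IsCompact {x | (em x, ep x) ∈ K ∧ |lv x| ≤ c}
  /-- the group is cocompact and acts properly -/
  cocompact : ∃ K : Set X, IsCompact K ∧ ∀ x, ∃ g : Γ, g • x ∈ K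
  proper : ∀ K : Set X, IsCompact K → {g : Γ | ∃ x ∈ K, g • x ∈ K}.Finite
  /-- the charts of the leaves -/
  e : X → E2 → B
  e_cont : ContinuousOn (fun p : X × E2 => e p.1 p.2) (univ ×ˢ closedBall 0 3)
  e_zero : ∀ x, e x 0 = ep x
  e_inj : ∀ x, InjOn (e x) (closedBall 0 3)
  e_ne : ∀ x, ∀ u ∈ closedBall (0 : E2) 3, e x u ≠ em x
  e_open : IsOpen {p : X × B | p.2 ∈ e p.1 '' ball 0 3}
  e_smul : ∀ (g : Γ) x, ∀ u ∈ closedBall (0 : E2) 3, e (g • x) u = g • e x u
  e_rot : ∀ a x, ∀ u ∈ closedBall (0 : E2) 3, e (rot a x) u = e x (a u)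
  /-- two unit discs of one leaf which meet, at bounded difference of levels, are close -/
  near : ∀ c : ℝ, ∃ C, ∀ x y, em x = em y → |lv x - lv y| ≤ c →
    (e x '' closedBall 0 3 ∩ e y '' closedBall 0 3).Nonempty → dist x y ≤ C
  /-- (L1) the transition maps are smooth, and depend continuously on the two frames -/
  tau_smooth : ∀ x y, em x = em y → ContDiffOn ℝ ∞ (tau e x y) (dom e x y)
  tau_cont : ∀ k : ℕ, ContinuousOn
    (fun p : (X × X) × E2 => iteratedFDeriv ℝ k (tau e p.1.1 p.1.2) p.2)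
    {p | em p.1.1 = em p.1.2 ∧ p.2 ∈ dom e p.1.1 p.1.2}
  /-- (L1) contraction in the past -/
  t1 : ℝ
  t1_pos : 0 < t1
  χ : ℝ
  χ_pos : 0 < χ
  engulf : ∀ x, ∀ t ≥ t1, e (φ t x) '' closedBall 0 3 ⊆ e x '' ball 0 1
  contract : ∀ k : ℕ, 1 ≤ k → ∃ C, ∀ x, ∀ t ≥ t1, ∀ u ∈ ball (0 : E2) 3,
    ‖iteratedFDeriv ℝ k (tau e (φ t x) x) u‖ ≤ C * Real.exp (-χ * t)
  /-- (L1) Hölder dependence of the transition maps on the frames -/
  holder : ∀ (k : ℕ) (c : ℝ), ∃ C α : ℝ, 0 < α ∧ ∀ x y x' y', em x = em y → em x' = em y' →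
    |lv x - lv y| ≤ c → |lv x' - lv y'| ≤ c → ∀ u ∈ closedBall (0 : E2) 2,
    e x u ∈ e y '' closedBall 0 2 → e x' u ∈ e y' '' closedBall 0 2 →
    ‖iteratedFDeriv ℝ k (tau e x y) u - iteratedFDeriv ℝ k (tau e x' y') u‖
      ≤ C * (dist x x' + dist y y') ^ α
  /-- (L3) stable holonomy of frames -/
  hol : B → X → X
  hol_em : ∀ ξ x, ξ ≠ ep x → em (hol ξ x) = ξ
  hol_ep : ∀ ξ x, ξ ≠ ep x → ep (hol ξ x) = ep x
  hol_lp : ∀ ξ x, ξ ≠ ep x → lv (flip (hol ξ x)) = lv (flip x)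
  hol_self : ∀ x, hol (em x) x = x
  hol_hol : ∀ ξ ξ' x, ξ ≠ ep x → ξ' ≠ ep x → hol ξ' (hol ξ x) = hol ξ' x
  hol_φ : ∀ t ξ x, ξ ≠ ep x → hol ξ (φ t x) = φ t (hol ξ x)
  hol_rot : ∀ a ξ x, ξ ≠ ep x → hol ξ (rot a x) = rot a (hol ξ x)
  hol_smul : ∀ (g : Γ) ξ x, ξ ≠ ep x → hol (g • ξ) (g • x) = g • hol ξ x
  hol_cont : ContinuousOn (fun p : B × X => hol p.1 p.2) {p | p.1 ≠ ep p.2}
  hol_asym : ∀ K : Set (B × X), IsCompact K → (∀ p ∈ K, p.1 ≠ ep p.2) →
    ∃ C, ∀ p ∈ K, ∀ t ≥ (0 : ℝ), dist (φ t p.2) (φ t (hol p.1 p.2)) ≤ C * Real.exp (-χ * t)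

namespace LeafA

variable {Γ X B : Type} [Group Γ] [MetricSpace X] [ProperSpace X] [MulAction Γ X]
  [IsIsometricSMul Γ X] [TopologicalSpace B] [CompactSpace B] [T2Space B] [MulAction Γ B]
  [ContinuousConstSMul Γ B]

variable (L : LeafA Γ X B)

/-! ### End points -/

theorem em_flip (x : X) : L.em (L.flip x) = L.ep x := (L.ep_flip x).symm

theorem ep_flip' (x : X) : L.ep (L.flip x) = L.em x := by rw [L.ep_flip, L.flip_flip]

theorem ep_cont : Continuous L.ep := by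
  have h : L.ep = fun x => L.em (L.flip x) := funext L.ep_flip
  rw [h]
  exact L.em_cont.comp L.flip_cont

theorem ep_smul (g : Γ) (x : X) : L.ep (g • x) = g • L.ep x := by
  rw [L.ep_flip, L.ep_flip, L.flip_smul, L.em_smul]

theorem ep_φ (t : ℝ) (x : X) : L.ep (L.φ t x) = L.ep x := by
  rw [L.ep_flip, L.ep_flip, L.flip_φ, L.em_φ]

theorem ep_rot (a : O2) (x : X) : L.ep (L.rot a x) = L.ep x := by
  rw [L.ep_flip, L.ep_flip, L.flip_rot, L.em_rot]

theorem φ_φ (s t : ℝ) (x : X) : L.φ s (L.φ t x) = L.φ (s + t) x := (L.φ_add s t x).symm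

theorem rot_rot (a b : O2) (x : X) : L.rot b (L.rot a x) = L.rot (a * b) x := (L.rot_mul a b x).symm

theorem smul_φ (g : Γ) (t : ℝ) (x : X) : g • L.φ t x = L.φ t (g • x) := (L.φ_smul g t x).symm

theorem φ_cont' (t : ℝ) : Continuous (L.φ t) :=
  L.φ_cont.comp (Continuous.prodMk_right t)

/-- the plane has a vector of norm two -/
theorem exists_norm_two : ∃ v : E2, ‖v‖ = 2 := by
  obtain ⟨v, hv⟩ := exists_norm_eq E2 (zero_le_two : (0 : ℝ) ≤ 2)
  exact ⟨v, hv⟩

/-- a compact neighbourhood of `ξ` which does not contain `η` -/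
theorem exists_compact_nhds {ξ η : B} (h : ξ ≠ η) :
    ∃ K ∈ 𝓝 ξ, IsCompact K ∧ η ∉ K := by
  have h1 : ({η}ᶜ : Set B) ∈ 𝓝 ξ := isOpen_compl_singleton.mem_nhds (by simpa using h)
  obtain ⟨K, hK, hKc, hKs⟩ := exists_mem_nhds_isClosed_subset h1
  exact ⟨K, hK, hKc.isCompact, fun h2 => by simpa using hKs h2⟩

/-- Ultrafilter limits of frames whose Hopf coordinates stay in a compact set. -/
theorem exists_limit {ι : Type*} (U : Ultrafilter ι) {y : ι → X} {ξ η : B} (hne : ξ ≠ η)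
    (hm : Tendsto (fun i => L.em (y i)) U (𝓝 ξ)) (hp : Tendsto (fun i => L.ep (y i)) U (𝓝 η))
    (c : ℝ) (hc : ∀ᶠ i in (U : Filter ι), |L.lv (y i)| ≤ c) :
    ∃ x, Tendsto y U (𝓝 x) ∧ L.em x = ξ ∧ L.ep x = η := by
  obtain ⟨A, hA, hAc, hAη⟩ := exists_compact_nhds hne
  obtain ⟨C, hC, hCc, hCA⟩ : ∃ C ∈ 𝓝 η, IsCompact C ∧ Disjoint A C := by
    have h1 : Aᶜ ∈ 𝓝 η := hAc.isClosed.isOpen_compl.mem_nhds hAη
    obtain ⟨C, hC, hCc, hCs⟩ := exists_mem_nhds_isClosed_subset h1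
    exact ⟨C, hC, hCc.isCompact, Set.disjoint_left.2 fun a ha hc => hCs hc ha⟩
  have hK := L.hopf_proper (A ×ˢ C) (hAc.prod hCc)
    (fun p hp h => Set.disjoint_left.1 hCA hp.1 (h ▸ hp.2)) c
  have hev : ∀ᶠ i in (U : Filter ι), y i ∈ {x | (L.em x, L.ep x) ∈ A ×ˢ C ∧ |L.lv x| ≤ c} := by
    filter_upwards [hm hA, hp hC, hc] with i h1 h2 h3
    exact ⟨⟨h1, h2⟩, h3⟩
  obtain ⟨x, -, hx⟩ := hK.ultrafilter_le_nhds (U.map y) (le_principal_iff.2 hev)
  have hx' : Tendsto y U (𝓝 x) := hx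
  refine ⟨x, hx', ?_, ?_⟩
  · exact tendsto_nhds_unique ((L.em_cont.tendsto x).comp hx') hm
  · exact tendsto_nhds_unique ((L.ep_cont.tendsto x).comp hx') hp

/-- The Hopf map is open (in the direction of the first coordinate). -/
theorem lift (w : X) {W : Set X} (hW : W ∈ 𝓝 w) :
    ∀ᶠ ξ in 𝓝 (L.em w), ∃ y ∈ W, L.em y = ξ ∧ L.ep y = L.ep w ∧ L.lv y = L.lv w := by
  by_contra hcon
  rw [Filter.not_eventually, frequently_iff_neBot] at hcon
  set F : Filter B := 𝓝 (L.em w) ⊓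
    𝓟 {ξ | ¬ ∃ y ∈ W, L.em y = ξ ∧ L.ep y = L.ep w ∧ L.lv y = L.lv w} with hF
  have : NeBot F := hcon
  set U : Ultrafilter B := Ultrafilter.of F with hU
  have hUF : (U : Filter B) ≤ F := Ultrafilter.of_le F
  have hex : ∀ ξ : B, ∃ y : X, ξ ≠ L.ep w → L.em y = ξ ∧ L.ep y = L.ep w ∧ L.lv y = L.lv w := by
    intro ξ
    by_cases h : ξ = L.ep w
    · exact ⟨w, fun h' => absurd h h'⟩
    · obtain ⟨y, hy⟩ := L.exists_frame ξ (L.ep w) h (L.lv w)
      exact ⟨y, fun _ => hy⟩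
  choose y hy using hex
  have hid : Tendsto (fun ξ : B => ξ) U (𝓝 (L.em w)) := hUF.trans inf_le_left
  have hne : ∀ᶠ ξ in (U : Filter B), ξ ≠ L.ep w :=
    hid (isOpen_compl_singleton.mem_nhds (by simpa using L.em_ne_ep w))
  have hbad : ∀ᶠ ξ in (U : Filter B),
      ¬ ∃ y ∈ W, L.em y = ξ ∧ L.ep y = L.ep w ∧ L.lv y = L.lv w :=
    le_principal_iff.1 (hUF.trans inf_le_right)
  have hm : Tendsto (fun ξ => L.em (y ξ)) U (𝓝 (L.em w)) :=
    hid.congr' (hne.mono fun ξ h => (hy ξ h).1.symm)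
  have hp : Tendsto (fun ξ => L.ep (y ξ)) U (𝓝 (L.ep w)) :=
    tendsto_const_nhds.congr' (hne.mono fun ξ h => (hy ξ h).2.1.symm)
  obtain ⟨x, hx, hxm, hxp⟩ := L.exists_limit U (L.em_ne_ep w) hm hp |L.lv w|
    (hne.mono fun ξ h => by rw [(hy ξ h).2.2])
  have hxl : L.lv x = L.lv w := by
    refine tendsto_nhds_unique ((L.lv_cont.tendsto x).comp hx) ?_
    exact tendsto_const_nhds.congr' (hne.mono fun ξ h => (hy ξ h).2.2.symm)
  obtain ⟨a, ha⟩ := L.frame_unique x w hxm hxp hxl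
  have h1 : Tendsto (fun ξ => L.rot a (y ξ)) U (𝓝 w) := by
    have h2 := ((L.rot_cont a).tendsto x).comp hx
    rw [← ha] at h2
    exact h2
  have h1' : ∀ᶠ ξ in (U : Filter B), L.rot a (y ξ) ∈ W := h1 hW
  obtain ⟨ξ, h2, h3, h4⟩ := (h1'.and (hne.and hbad)).exists
  refine h4 ⟨L.rot a (y ξ), h2, ?_, ?_, ?_⟩
  · rw [L.em_rot]; exact (hy ξ h3).1
  · rw [L.ep_rot]; exact (hy ξ h3).2.1
  · rw [L.lv_rot]; exact (hy ξ h3).2.2

/-! ### Exhaustion and shrinking -/

/-- The discs of the past exhaust the leaf. -/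
theorem exhaust (x : X) (η : B) (hη : η ≠ L.em x) :
    ∀ᶠ t : ℝ in atTop, η ∈ L.e (L.φ (-t) x) '' ball 0 3 := by
  set f := L.flip x with hf
  set f' := L.hol η f with hf'
  have hηf : η ≠ L.ep f := by rw [hf, L.ep_flip']; exact hη
  obtain ⟨C, hC⟩ := L.hol_asym {(η, f)} isCompact_singleton (by
    rintro p rfl; exact hηf)
  have hC' : ∀ t ≥ (0 : ℝ), dist (L.φ t f) (L.φ t f') ≤ C * Real.exp (-L.χ * t) := fun t ht =>
    hC (η, f) rfl t ht
  by_contra hcon
  rw [Filter.not_eventually, frequently_iff_neBot] at hcon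
  set F : Filter ℝ := atTop ⊓ 𝓟 {t | ¬ η ∈ L.e (L.φ (-t) x) '' ball 0 3} with hF
  have : NeBot F := hcon
  set U : Ultrafilter ℝ := Ultrafilter.of F with hU
  have hUF : (U : Filter ℝ) ≤ F := Ultrafilter.of_le F
  have htop : (U : Filter ℝ) ≤ atTop := hUF.trans inf_le_left
  have hbad : ∀ᶠ t in (U : Filter ℝ), ¬ η ∈ L.e (L.φ (-t) x) '' ball 0 3 :=
    le_principal_iff.1 (hUF.trans inf_le_right)
  obtain ⟨K, hK, hKc⟩ := L.cocompact
  choose g hg using fun t : ℝ => hKc (L.φ t f)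
  obtain ⟨u, -, hu⟩ := hK.ultrafilter_le_nhds (U.map fun t => g t • L.φ t f)
    (le_principal_iff.2 (mem_map.2 (Filter.Eventually.of_forall hg)))
  have hu1 : Tendsto (fun t => g t • L.φ t f) U (𝓝 u) := hu
  have hdist : Tendsto (fun t => dist (g t • L.φ t f) (g t • L.φ t f')) U (𝓝 0) := by
    have h1 : Tendsto (fun t : ℝ => C * Real.exp (-L.χ * t)) atTop (𝓝 (C * 0)) := by
      refine Tendsto.const_mul C (Real.tendsto_exp_atBot.comp ?_)
      exact (tendsto_const_mul_atBot_of_neg (neg_lt_zero.2 L.χ_pos)).2 tendsto_id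
    rw [mul_zero] at h1
    refine squeeze_zero' (Filter.Eventually.of_forall fun t => dist_nonneg) ?_ (h1.mono_left htop)
    filter_upwards [htop (eventually_ge_atTop (0 : ℝ))] with t ht
    rw [dist_smul]
    exact hC' t ht
  have hu2 : Tendsto (fun t => g t • L.φ t f') U (𝓝 u) := by
    rw [tendsto_iff_dist_tendsto_zero] at hu1 ⊢
    have h2 := hdist.add hu1
    rw [add_zero] at h2
    refine squeeze_zero (fun t => dist_nonneg) (fun t => ?_) h2
    calc dist (g t • L.φ t f') u ≤ dist (g t • L.φ t f') (g t • L.φ t f)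
          + dist (g t • L.φ t f) u := dist_triangle _ _ _
      _ = _ := by rw [dist_comm (g t • L.φ t f')]
  have hP : ∀ᶠ t in (U : Filter ℝ), (L.flip (g t • L.φ t f), L.ep (L.flip (g t • L.φ t f'))) ∈
      {p : X × B | p.2 ∈ L.e p.1 '' ball 0 3} := by
    have h3 : Tendsto (fun t => (L.flip (g t • L.φ t f), L.ep (L.flip (g t • L.φ t f')))) U
        (𝓝 (L.flip u, L.ep (L.flip u))) :=
      (((L.flip_cont.tendsto u).comp hu1)).prodMk_nhds
        ((L.ep_cont.tendsto _).comp ((L.flip_cont.tendsto u).comp hu2))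
    refine h3 (L.e_open.mem_nhds ?_)
    exact ⟨0, mem_ball_self (by norm_num), L.e_zero _⟩
  obtain ⟨t, ht1, ht2⟩ := (hP.and hbad).exists
  refine ht2 ?_
  obtain ⟨v, hv, hve⟩ := ht1
  have hv' : v ∈ closedBall (0 : E2) 3 := ball_subset_closedBall hv
  have h4 : L.flip (g t • L.φ t f) = g t • L.φ (-t) x := by
    rw [L.flip_smul, L.flip_φ, hf, L.flip_flip]
  have h5 : L.ep (L.flip (g t • L.φ t f')) = g t • η := by
    rw [L.flip_smul, L.ep_smul, L.flip_φ, L.ep_φ, L.ep_flip', hf', L.hol_em _ _ hηf]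
  simp only at hve
  rw [h4, h5, L.e_smul _ _ _ hv'] at hve
  exact ⟨v, hv, smul_left_cancel _ hve⟩

/-- the value of the transition map to the past -/
theorem e_tau {x : X} {t : ℝ} (ht : L.t1 ≤ t) {u : E2} (hu : u ∈ closedBall (0 : E2) 3) :
    L.e x (tau L.e (L.φ t x) x u) = L.e (L.φ t x) u ∧
      tau L.e (L.φ t x) x u ∈ closedBall (0 : E2) 3 := by
  have h1 : L.e (L.φ t x) u ∈ L.e x '' ball 0 1 := L.engulf x t ht ⟨u, hu, rfl⟩
  have h2 : L.e (L.φ t x) u ∈ L.e x '' closedBall 0 3 :=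
    image_mono ((ball_subset_ball (by norm_num)).trans ball_subset_closedBall) h1
  obtain ⟨v, hv, hve⟩ := h2
  exact ⟨Function.invFunOn_eq ⟨v, hv, hve⟩, Function.invFunOn_mem ⟨v, hv, hve⟩⟩

theorem dom_past {x : X} {t : ℝ} (ht : L.t1 ≤ t) : dom L.e (L.φ t x) x = ball 0 3 := by
  apply Subset.antisymm
  · intro u hu; exact hu.1
  · intro u hu
    refine ⟨hu, ?_⟩
    have h1 : L.e (L.φ t x) u ∈ L.e x '' ball 0 1 :=
      L.engulf x t ht ⟨u, ball_subset_closedBall hu, rfl⟩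
    exact image_mono (ball_subset_ball (by norm_num)) h1

/-- The discs of the future shrink to the end point. -/
theorem shrink (x : X) {N : Set B} (hN : N ∈ 𝓝 (L.ep x)) :
    ∀ᶠ t : ℝ in atTop, L.e (L.φ t x) '' closedBall 0 3 ⊆ N := by
  -- continuity of `e x` at zero
  have hcont : ContinuousWithinAt (L.e x) (closedBall 0 3) 0 := by
    have h1 : ContinuousOn (fun u : E2 => L.e x u) (closedBall 0 3) := by
      have h2 : ContinuousOn (fun u : E2 => ((x, u) : X × E2)) (closedBall 0 3) :=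
        (Continuous.prodMk_right x).continuousOn
      exact L.e_cont.comp h2 fun u hu => ⟨mem_univ _, hu⟩
    exact h1 0 (mem_closedBall_self (by norm_num))
  have hN' : N ∈ 𝓝 (L.e x 0) := by rw [L.e_zero]; exact hN
  obtain ⟨δ, hδ, hδN⟩ := Metric.mem_nhdsWithin_iff.1 (hcont hN')
  obtain ⟨C, hC⟩ := L.contract 1 le_rfl
  have h1 : Tendsto (fun t : ℝ => C * Real.exp (-L.χ * t) * 3) atTop (𝓝 (C * 0 * 3)) := by
    refine Tendsto.mul_const 3 (Tendsto.const_mul C (Real.tendsto_exp_atBot.comp ?_))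
    exact (tendsto_const_mul_atBot_of_neg (neg_lt_zero.2 L.χ_pos)).2 tendsto_id
  rw [mul_zero, zero_mul] at h1
  have h2 : ∀ᶠ t : ℝ in atTop, C * Real.exp (-L.χ * t) * 3 < δ := h1.eventually_lt_const hδ
  have h3 : ∀ᶠ t : ℝ in atTop, L.e (L.φ t x) '' ball 0 3 ⊆ N := by
    filter_upwards [h2, eventually_ge_atTop L.t1] with t ht ht1
    rintro _ ⟨u, hu, rfl⟩
    have hdiff : ContDiffOn ℝ ∞ (tau L.e (L.φ t x) x) (ball 0 3) := by
      have := L.tau_smooth (L.φ t x) x (L.em_φ t x)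
      rwa [L.dom_past ht1] at this
    have hz : tau L.e (L.φ t x) x 0 = 0 := by
      obtain ⟨h4, h5⟩ := L.e_tau (x := x) ht1 (u := 0) (mem_closedBall_self (by norm_num))
      refine L.e_inj x h5 (mem_closedBall_self (by norm_num)) ?_
      rw [h4, L.e_zero, L.e_zero, L.ep_φ]
    have hb : ∀ v ∈ ball (0 : E2) 3, ‖fderiv ℝ (tau L.e (L.φ t x) x) v‖
        ≤ C * Real.exp (-L.χ * t) := by
      intro v hv
      have h6 := hC x t ht1 v hv
      rwa [norm_iteratedFDeriv_one] at h6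
    have hd : ∀ v ∈ ball (0 : E2) 3, DifferentiableAt ℝ (tau L.e (L.φ t x) x) v := by
      intro v hv
      exact (hdiff.contDiffAt (isOpen_ball.mem_nhds hv)).differentiableAt (by norm_num)
    have h7 := (convex_ball (0 : E2) 3).norm_image_sub_le_of_norm_fderiv_le hd hb
      (mem_ball_self (by norm_num)) hu
    rw [hz, sub_zero, sub_zero] at h7
    have hC0 : 0 ≤ C * Real.exp (-L.χ * t) :=
      (norm_nonneg _).trans (hb 0 (mem_ball_self (by norm_num)))
    have h8 : ‖tau L.e (L.φ t x) x u‖ < δ := by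
      refine lt_of_le_of_lt h7 (lt_of_le_of_lt ?_ ht)
      exact mul_le_mul_of_nonneg_left (by simpa using (mem_ball_zero_iff.1 hu).le) hC0
    obtain ⟨h4, h5⟩ := L.e_tau (x := x) ht1 (ball_subset_closedBall hu)
    rw [← h4]
    exact hδN ⟨by simpa using h8, h5⟩
  -- the closed disc
  have h4 := (tendsto_atTop_add_const_right atTop (-L.t1) tendsto_id).eventually h3
  filter_upwards [h4] with t ht
  have h5 : L.φ t x = L.φ L.t1 (L.φ (t + -L.t1) x) := by
    rw [L.φ_φ]; congr 1; ring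
  rw [h5]
  refine (L.engulf (L.φ (t + -L.t1) x) L.t1 le_rfl).trans ?_
  exact (image_mono (ball_subset_ball (by norm_num))).trans ht

/-! ### North-South dynamics -/

theorem pow_axis {β : Γ} {x : X} {l : ℝ} {a : O2} (h : β • x = L.φ l (L.rot a x)) (n : ℕ) :
    β ^ n • x = L.φ (n * l) (L.rot (a ^ n) x) := by
  induction n with
  | zero => simp [L.φ_zero, L.rot_one]
  | succ n ih =>
    rw [pow_succ', mul_smul, ih, L.smul_φ, ← L.rot_smul, h, L.rot_φ, L.φ_φ, L.rot_rot]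
    rw [← pow_succ']
    congr 1
    push_cast
    ring

/-- Pointwise North-South dynamics. -/
theorem tendsto_pow {β : Γ} {x : X} {l : ℝ} {a : O2} (hl : 0 < l)
    (h : β • x = L.φ l (L.rot a x)) {p : B} (hp : p ≠ L.em x) :
    Tendsto (fun n : ℕ => β ^ n • p) atTop (𝓝 (L.ep x)) := by
  obtain ⟨T, hT⟩ := (L.exhaust x p hp).exists
  obtain ⟨u, hu, hup⟩ := hT
  have hu' : u ∈ closedBall (0 : E2) 3 := ball_subset_closedBall hu
  intro N hN
  have h1 := L.shrink x hN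
  have h2 : Tendsto (fun n : ℕ => (n : ℝ) * l - T) atTop atTop := by
    have h3 : Tendsto (fun n : ℕ => (n : ℝ) * l) atTop atTop :=
      tendsto_natCast_atTop_atTop.atTop_mul_const hl
    simpa [sub_eq_add_neg] using tendsto_atTop_add_const_right atTop (-T) h3
  have h4 := h2.eventually h1
  rw [mem_map]
  filter_upwards [h4] with n hn
  apply hn
  refine ⟨(a ^ n) u, ?_, ?_⟩
  · rw [mem_closedBall_zero_iff, LinearIsometryEquiv.norm_map]
    exact mem_closedBall_zero_iff.1 hu'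
  · change L.e (L.φ (n * l - T) x) ((a ^ n) u) = β ^ n • p
    rw [← hup, ← L.e_smul _ _ _ hu', L.smul_φ, L.pow_axis h, ← L.e_rot _ _ _ hu', L.φ_φ,
      L.rot_φ]
    congr 2
    ring

/-- the inverse of an element with an axis -/
theorem inv_axis {β : Γ} {x : X} {l : ℝ} {a : O2} (h : β • x = L.φ l (L.rot a x)) :
    β⁻¹ • L.flip x = L.φ l (L.rot a⁻¹ (L.flip x)) := by
  rw [inv_smul_eq_iff, L.smul_φ, ← L.rot_smul, ← L.flip_smul, h, L.flip_φ, L.flip_rot, L.rot_φ,
    L.φ_φ, L.rot_rot]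
  simp [L.φ_zero, L.rot_one]

/-- a conjugate of an element with an axis -/
theorem conj_axis {β : Γ} {x : X} {l : ℝ} {a : O2} (h : β • x = L.φ l (L.rot a x)) (k : Γ) :
    (k * β * k⁻¹) • (k • x) = L.φ l (L.rot a (k • x)) := by
  rw [smul_smul, inv_mul_cancel_right, mul_smul, h, L.smul_φ, L.rot_smul]

/-- the image of an open subset of the disc is open -/
theorem isOpen_image (x : X) {V : Set E2} (hV : IsOpen V) (hV3 : V ⊆ ball 0 3) :
    IsOpen (L.e x '' V) := by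
  have h1 : IsOpen (L.e x '' ball 0 3) := by
    have h2 : Continuous fun η : B => ((x, η) : X × B) := Continuous.prodMk_right x
    exact L.e_open.preimage h2
  have h3 : ContinuousOn (L.e x) (closedBall 0 3) := by
    have h2 : ContinuousOn (fun u : E2 => ((x, u) : X × E2)) (closedBall 0 3) :=
      (Continuous.prodMk_right x).continuousOn
    exact L.e_cont.comp h2 fun u hu => ⟨mem_univ _, hu⟩
  have h4 : IsClosed (L.e x '' (closedBall 0 3 \ V)) :=
    (((isCompact_closedBall (0 : E2) 3).diff hV).image_of_continuousOn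
      (h3.mono sdiff_subset)).isClosed
  have h5 : L.e x '' V = L.e x '' ball 0 3 ∩ (L.e x '' (closedBall 0 3 \ V))ᶜ := by
    apply Subset.antisymm
    · rintro _ ⟨u, hu, rfl⟩
      refine ⟨⟨u, hV3 hu, rfl⟩, ?_⟩
      rintro ⟨v, ⟨hv, hvV⟩, hve⟩
      have := L.e_inj x hv (ball_subset_closedBall (hV3 hu)) hve
      exact hvV (this ▸ hu)
    · rintro _ ⟨⟨u, hu, rfl⟩, hn⟩
      refine ⟨u, ?_, rfl⟩
      by_contra huV
      exact hn ⟨u, ⟨ball_subset_closedBall hu, huV⟩, rfl⟩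
  rw [h5]
  exact h1.inter h4.isOpen_compl

/-- **(L4)** the images of an open piece of a leaf become dense -/
theorem dense_leaf (hd : ∀ η : B, Dense (range fun g : Γ => g • η))
    (ha : ∀ β : Γ, β ≠ 1 → ∃ (x : X) (l : ℝ) (a : O2), 0 < l ∧ β • x = L.φ l (L.rot a x))
    (hne : ∃ β : Γ, β ≠ 1) (x : X) (V : Set E2) (hV : IsOpen V) (hV3 : V ⊆ ball 0 3)
    (hVne : V.Nonempty) (T : ℝ) (W : Set X) (hW : IsOpen W) (hWne : W.Nonempty) :
    ∃ (g : Γ) (y : X), L.em y = L.em x ∧ L.ep y ∈ L.e x '' V ∧ T ≤ L.lv y ∧ g • y ∈ W := by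
  obtain ⟨β₀, hβ₀⟩ := hne
  obtain ⟨x₀, l, a, hl, hx₀⟩ := ha β₀ hβ₀
  set O : Set B := L.e x '' V with hO
  have hOo : IsOpen O := L.isOpen_image x hV hV3
  have hOne : O.Nonempty := hVne.image _
  -- an axis which ends in `O`
  obtain ⟨_, hkO, ⟨k, rfl⟩⟩ := (hd (L.ep x₀)).inter_open_nonempty O hOo hOne
  set β : Γ := k * β₀ * k⁻¹ with hβ
  set xb : X := k • x₀ with hxb
  have hax : β • xb = L.φ l (L.rot a xb) := L.conj_axis hx₀ k
  have hepO : L.ep xb ∈ O := by rw [hxb, L.ep_smul]; exact hkO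
  have hOξ : ∀ η ∈ O, η ≠ L.em x := by
    rintro _ ⟨u, hu, rfl⟩
    exact L.e_ne x u (ball_subset_closedBall (hV3 hu))
  -- a frame of `W` with past end point in the orbit of `em xb`
  obtain ⟨w, hw⟩ := hWne
  obtain ⟨S, hS, hSo, hSw⟩ := mem_nhds_iff.1 (L.lift w (hW.mem_nhds hw))
  obtain ⟨_, hhS, ⟨h, rfl⟩⟩ := (hd (L.em xb)).inter_open_nonempty S hSo ⟨_, hSw⟩
  obtain ⟨w', hw', hw'm, -, -⟩ := hS hhS
  set z : X := h⁻¹ • w' with hz
  have hzm : L.em z = L.em xb := by rw [hz, L.em_smul, hw'm, inv_smul_smul]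
  -- the frames `z n`
  have hcontract : Tendsto (fun n : ℕ => β⁻¹ ^ n • L.em x) atTop (𝓝 (L.em z)) := by
    have h1 := L.tendsto_pow hl (L.inv_axis hax) (p := L.em x) (by
      rw [L.em_flip]; exact (hOξ _ hepO).symm)
    rwa [L.ep_flip', ← hzm] at h1
  set W' : Set X := (fun y : X => h • y) ⁻¹' W ∩ ball z 1 with hW'
  have hW'n : W' ∈ 𝓝 z := by
    refine inter_mem ?_ (ball_mem_nhds z one_pos)
    have h1 : Continuous fun y : X => h • y := continuous_const_smul h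
    refine h1.continuousAt.preimage_mem_nhds (hW.mem_nhds ?_)
    simpa [hz] using hw'
  have hex := hcontract.eventually (L.lift z hW'n)
  have hex' : ∀ n : ℕ, ∃ y : X, (∃ y ∈ W', L.em y = β⁻¹ ^ n • L.em x ∧ L.ep y = L.ep z ∧
      L.lv y = L.lv z) → (y ∈ W' ∧ L.em y = β⁻¹ ^ n • L.em x ∧ L.ep y = L.ep z ∧
      L.lv y = L.lv z) := by
    intro n
    by_cases hn : ∃ y ∈ W', L.em y = β⁻¹ ^ n • L.em x ∧ L.ep y = L.ep z ∧ L.lv y = L.lv z
    · obtain ⟨y, hy⟩ := hn
      exact ⟨y, fun _ => hy⟩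
    · exact ⟨z, fun h' => absurd h' hn⟩
  choose zn hzn' using hex'
  have hzn : ∀ᶠ n : ℕ in atTop, zn n ∈ W' ∧ L.em (zn n) = β⁻¹ ^ n • L.em x ∧
      L.ep (zn n) = L.ep z ∧ L.lv (zn n) = L.lv z := hex.mono fun n hn => hzn' n hn
  have hezb : L.ep z ≠ L.em xb := by rw [← hzm]; exact (L.em_ne_ep z).symm
  have hexp : Tendsto (fun n : ℕ => β ^ n • L.ep z) atTop (𝓝 (L.ep xb)) :=
    L.tendsto_pow hl hax hezb
  -- the levels
  by_cases hlev : ∃ᶠ n : ℕ in atTop, T ≤ L.lv (β ^ n • zn n)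
  · obtain ⟨n, ⟨hn1, hn2⟩, hn3⟩ :=
      ((hzn.and (hexp.eventually (hOo.mem_nhds hepO))).and_frequently hlev).exists
    refine ⟨h * β⁻¹ ^ n, β ^ n • zn n, ?_, ?_, hn3, ?_⟩
    · rw [L.em_smul, hn1.2.1, inv_pow, smul_inv_smul]
    · rw [L.ep_smul, hn1.2.2.1]; exact hn2
    · rw [mul_smul, smul_smul (β⁻¹ ^ n)]
      have h2 : β⁻¹ ^ n * β ^ n = 1 := by rw [inv_pow, inv_mul_cancel]
      rw [h2, one_smul]
      exact hn1.1.1
  · exfalso
    rw [Filter.not_frequently] at hlev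
    set U : Ultrafilter ℕ := Ultrafilter.of atTop with hU
    have hUt : (U : Filter ℕ) ≤ atTop := Ultrafilter.of_le atTop
    -- limit of `zn`
    obtain ⟨z', -, hz'⟩ := (isCompact_closedBall z 1).ultrafilter_le_nhds (U.map zn)
      (le_principal_iff.2 (hUt (hzn.mono fun n hn => ball_subset_closedBall hn.1.2)))
    have hz1 : Tendsto zn U (𝓝 z') := hz'
    have hz'm : L.em z' = L.em xb := by
      refine tendsto_nhds_unique ((L.em_cont.tendsto z').comp hz1) ?_
      rw [← hzm]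
      have hzU : ∀ᶠ n in (U : Filter ℕ), β⁻¹ ^ n • L.em x = L.em (zn n) := by
        filter_upwards [hUt hzn] with n hn
        exact hn.2.1.symm
      exact (hcontract.mono_left hUt).congr' hzU
    -- frames at the level `T + t1`
    set s : ℕ → ℝ := fun n => T + L.t1 - L.lv (β ^ n • zn n) with hs
    have hs1 : ∀ᶠ n in (U : Filter ℕ), L.t1 ≤ s n := by
      filter_upwards [hUt hlev] with n hn
      have := not_le.1 hn
      simp only [hs]; linarith
    set un : ℕ → X := fun n => L.φ (s n) (β ^ n • zn n) with hun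
    have hum : ∀ᶠ n in (U : Filter ℕ), L.em (un n) = L.em x := by
      filter_upwards [hUt hzn] with n hn
      simp only [hun]
      rw [L.em_φ, L.em_smul, hn.2.1, inv_pow, smul_inv_smul]
    have hup : ∀ᶠ n in (U : Filter ℕ), L.ep (un n) = β ^ n • L.ep z := by
      filter_upwards [hUt hzn] with n hn
      simp only [hun]
      rw [L.ep_φ, L.ep_smul, hn.2.2.1]
    have hul : ∀ n, L.lv (un n) = T + L.t1 := by
      intro n
      simp only [hun]
      rw [L.lv_φ]; simp only [hs]; ring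
    obtain ⟨u, hu, hum', hup'⟩ := L.exists_limit U (hOξ _ hepO).symm
      (tendsto_const_nhds.congr' (hum.mono fun n hn => hn.symm))
      ((hexp.mono_left hUt).congr' (hup.mono fun n hn => hn.symm)) |T + L.t1|
      (Filter.Eventually.of_forall fun n => by rw [hul n])
    -- the test point
    obtain ⟨v, hv⟩ := exists_norm_two
    have hv3 : v ∈ closedBall (0 : E2) 3 := by
      rw [mem_closedBall_zero_iff, hv]; norm_num
    set p : B := L.e z' v with hp
    have hpne : p ≠ L.em xb := by rw [← hz'm]; exact L.e_ne z' v hv3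
    have hpt : Tendsto (fun n : ℕ => β ^ n • p) atTop (𝓝 (L.ep xb)) := L.tendsto_pow hl hax hpne
    have hP : ∀ᶠ n in (U : Filter ℕ), (un n, β ^ n • p) ∈
        {p : X × B | p.2 ∈ L.e p.1 '' ball 0 3} := by
      have h3 : Tendsto (fun n => (un n, β ^ n • p)) U (𝓝 (u, L.ep xb)) :=
        hu.prodMk_nhds (hpt.mono_left hUt)
      refine h3 (L.e_open.mem_nhds ?_)
      exact ⟨0, mem_ball_self (by norm_num), by rw [L.e_zero]; exact hup'⟩
    have hQ : ∀ᶠ n in (U : Filter ℕ), ∃ v' ∈ ball (0 : E2) 1, L.e (zn n) v' = p := by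
      filter_upwards [hP, hs1] with n hn hsn
      obtain ⟨v', hv', hve⟩ := hn
      simp only [hun] at hve
      have h6 : β ^ n • L.e (L.φ (s n) (zn n)) v' = β ^ n • p := by
        rw [← L.e_smul _ _ _ (ball_subset_closedBall hv'), L.smul_φ]
        exact hve
      have h7 := smul_left_cancel _ h6
      have h8 : L.e (L.φ (s n) (zn n)) v' ∈ L.e (zn n) '' ball 0 1 :=
        L.engulf (zn n) (s n) hsn ⟨v', ball_subset_closedBall hv', rfl⟩
      rw [h7] at h8
      exact h8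
    have hex2 : ∀ n : ℕ, ∃ v' : E2, (∃ v' ∈ ball (0 : E2) 1, L.e (zn n) v' = p) →
        v' ∈ ball (0 : E2) 1 ∧ L.e (zn n) v' = p := by
      intro n
      by_cases hn : ∃ v' ∈ ball (0 : E2) 1, L.e (zn n) v' = p
      · obtain ⟨v', hv'⟩ := hn
        exact ⟨v', fun _ => hv'⟩
      · exact ⟨0, fun h' => absurd h' hn⟩
    choose vn hvn' using hex2
    have hvn : ∀ᶠ n in (U : Filter ℕ), vn n ∈ ball (0 : E2) 1 ∧ L.e (zn n) (vn n) = p :=
      hQ.mono fun n hn => hvn' n hn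
    obtain ⟨v', hv'1, hv'⟩ := (isCompact_closedBall (0 : E2) 1).ultrafilter_le_nhds (U.map vn)
      (le_principal_iff.2 (hvn.mono fun n hn => ball_subset_closedBall hn.1))
    have hv2 : Tendsto vn U (𝓝 v') := hv'
    have hv'3 : v' ∈ closedBall (0 : E2) 3 := closedBall_subset_closedBall (by norm_num) hv'1
    have hlim : Tendsto (fun n => L.e (zn n) (vn n)) U (𝓝 (L.e z' v')) := by
      have h9 : ContinuousWithinAt (fun p : X × E2 => L.e p.1 p.2) (univ ×ˢ closedBall 0 3)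
          (z', v') := L.e_cont (z', v') ⟨mem_univ _, hv'3⟩
      have h10 : Tendsto (fun n => (zn n, vn n)) U (𝓝[univ ×ˢ closedBall 0 3] (z', v')) := by
        refine tendsto_nhdsWithin_iff.2 ⟨hz1.prodMk_nhds hv2, ?_⟩
        filter_upwards [hvn] with n hn
        exact ⟨mem_univ _, closedBall_subset_closedBall (by norm_num)
          (ball_subset_closedBall hn.1)⟩
      exact h9.tendsto.comp h10
    have heq : L.e z' v' = p := by
      refine tendsto_nhds_unique hlim ?_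
      exact tendsto_const_nhds.congr' (hvn.mono fun n hn => hn.2.symm)
    have h11 : v' = v := L.e_inj z' hv'3 hv3 heq
    rw [h11, mem_closedBall_zero_iff, hv] at hv'1
    norm_num at hv'1

/-- A `LeafA` with `dense_orbit` and `exists_axis` is a `Leaf`. -/
def toLeaf (dense_orbit : ∀ η : B, Dense (range fun g : Γ => g • η))
    (exists_axis : ∀ β : Γ, β ≠ 1 →
      ∃ (x : X) (l : ℝ) (a : O2), 0 < l ∧ β • x = L.φ l (L.rot a x))
    (hne : ∃ β : Γ, β ≠ 1) : Leaf Γ X B where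
  nonempty := L.nonempty
  φ := L.φ
  φ_zero := L.φ_zero
  φ_add := L.φ_add
  φ_cont := L.φ_cont
  φ_smul := L.φ_smul
  rot := L.rot
  rot_one := L.rot_one
  rot_mul := L.rot_mul
  rot_cont := L.rot_cont
  rot_smul := L.rot_smul
  rot_φ := L.rot_φ
  flip := L.flip
  flip_flip := L.flip_flip
  flip_cont := L.flip_cont
  flip_smul := L.flip_smul
  flip_φ := L.flip_φ
  flip_rot := L.flip_rot
  em := L.em
  em_cont := L.em_cont
  em_smul := L.em_smul
  em_φ := L.em_φ
  em_rot := L.em_rot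
  ep := L.ep
  ep_flip := L.ep_flip
  em_ne_ep := L.em_ne_ep
  lv := L.lv
  lv_cont := L.lv_cont
  lv_φ := L.lv_φ
  lv_rot := L.lv_rot
  lv_smul := L.lv_smul
  exists_frame := L.exists_frame
  frame_unique := L.frame_unique
  hopf_proper := L.hopf_proper
  cocompact := L.cocompact
  proper := L.proper
  e := L.e
  e_cont := L.e_cont
  e_zero := L.e_zero
  e_inj := L.e_inj
  e_ne := L.e_ne
  e_open := L.e_open
  e_smul := L.e_smul
  e_rot := L.e_rot
  near := L.near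
  tau_smooth := L.tau_smooth
  tau_cont := L.tau_cont
  t1 := L.t1
  t1_pos := L.t1_pos
  χ := L.χ
  χ_pos := L.χ_pos
  engulf := L.engulf
  contract := L.contract
  holder := L.holder
  hol := L.hol
  hol_em := L.hol_em
  hol_ep := L.hol_ep
  hol_lp := L.hol_lp
  hol_self := L.hol_self
  hol_hol := L.hol_hol
  hol_φ := L.hol_φ
  hol_rot := L.hol_rot
  hol_smul := L.hol_smul
  hol_cont := L.hol_cont
  hol_asym := L.hol_asym
  dense_orbit := dense_orbit
  dense_leaf := L.dense_leaf dense_orbit exists_axis hne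
  exists_axis := exists_axis

end LeafA

end Vale.Agent.P207.N3
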