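import Vale.Agent.P207.N3.H76.SliceC0
import Vale.Agent.P207.N3.H709.Act
import Vale.Agent.P207.N3.H728.Equi
import Vale.Agent.P207.N3.H460.HolMap

/-!
# P207, line N3: the stable holonomy over 76's `Geo`

`MF G`: the metric facts of the frame bundle (row R16), in their weakest (local) form.
`G.frLn F : FrLn G.had Γ X`, and the fields `hol_*` of `LeafA` at an arbitrary base point.
-/

open Set Filter Topology Metric
open Vale.Agent.P207.N3.H395 Vale.Agent.P207.N3.H728 Vale.Agent.P207.N3.H709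
open Vale.Agent.P207.N3.H76

noncomputable section

namespace Vale.Agent.P207.N3.H460

/-- distance of two lines -/
def DL {Y : Type*} [MetricSpace Y] (c c' : Ln Y) : ℝ := dist (c 0) (c' 0) + dist (c 1) (c' 1)

theorem DL_nonneg {Y : Type*} [MetricSpace Y] (c c' : Ln Y) : 0 ≤ DL c c' :=
  add_nonneg dist_nonneg dist_nonneg

variable {Γ X Y : Type} [Group Γ] [MetricSpace X] [ProperSpace X] [MetricSpace Y]
  [ProperSpace Y] [MulAction Γ X] [MulAction Γ Y] [IsIsometricSMul Γ X] [IsIsometricSMul Γ Y]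

/-- **The metric facts of the frame bundle** (row R16), local form: the frame flow is locally
Lipschitz for times in `[0,1]`; over a line `c` close to the line of `x` there is a frame close
to `x`; the rotations are locally bi-Lipschitz. -/
structure MF (G : Geo Γ X Y) : Prop where
  lip : ∃ ε : ℝ, 0 < ε ∧ ∃ L : ℝ, ∀ t ∈ Icc (0 : ℝ) 1, ∀ x y, dist x y ≤ ε →
    dist (G.φ t x) (G.φ t y) ≤ L * dist x y
  near : ∃ ε : ℝ, 0 < ε ∧ ∃ L : ℝ, ∀ x (c : Ln Y), DL (G.p x) c ≤ ε →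
    ∃ y, G.p y = c ∧ dist x y ≤ L * DL (G.p x) c
  rot_up : ∃ ε : ℝ, 0 < ε ∧ ∃ L : ℝ, ∀ a x, ‖op a - op 1‖ ≤ ε →
    dist (G.rot a x) x ≤ L * ‖op a - op 1‖
  rot_low : ∃ ε : ℝ, 0 < ε ∧ ∃ L : ℝ, ∀ a x, dist (G.rot a x) x ≤ ε →
    ‖op a - op 1‖ ≤ L * dist (G.rot a x) x

namespace MF

variable {G : Geo Γ X Y}

theorem norm_op_le (a : O2) : ‖op a - op 1‖ ≤ 2 := by
  have h : ∀ b : O2, ‖op b‖ ≤ 1 := fun b =>
    ContinuousLinearMap.opNorm_le_bound _ zero_le_one fun u => by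
      rw [op_apply, b.norm_map, one_mul]
  calc ‖op a - op 1‖ ≤ ‖op a‖ + ‖op 1‖ := norm_sub_le _ _
    _ ≤ 1 + 1 := add_le_add (h a) (h 1)
    _ = 2 := by norm_num

/-- the speed of the frame flow is bounded -/
theorem speed (G : Geo Γ X Y) : ∃ L : ℝ, ∀ t ∈ Icc (0 : ℝ) 1, ∀ x, dist (G.φ t x) x ≤ L := by
  obtain ⟨K, hK, hKc⟩ := G.cocompact
  have hc : Continuous fun q : ℝ × X => dist (G.φ q.1 q.2) q.2 := G.φ_cont.dist continuous_snd
  obtain ⟨L, hL⟩ := ((isCompact_Icc (a := (0 : ℝ)) (b := 1)).prod hK).image hc |>.bddAbove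
  refine ⟨L, fun t ht x => ?_⟩
  obtain ⟨g, hg⟩ := hKc x
  have h1 : dist (G.φ t (g • x)) (g • x) ≤ L := hL ⟨(t, g • x), ⟨ht, hg⟩, rfl⟩
  rwa [G.φ_smul, dist_smul] at h1

/-- the fibres of `p` are uniformly bounded -/
theorem rot_bdd (G : Geo Γ X Y) : ∃ L : ℝ, ∀ a x, dist (G.rot a x) x ≤ L := by
  obtain ⟨C, hC⟩ := G.bdd_ft 0
  refine ⟨C, fun a x => hC _ _ ?_⟩
  rw [G.ft_rot, dist_self]

theorem exists_const (F : MF G) : ∃ ε L : ℝ, 0 < ε ∧ 1 ≤ L ∧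
    (∀ t ∈ Icc (0 : ℝ) 1, ∀ x, dist (G.φ t x) x ≤ L) ∧
    (∀ t ∈ Icc (0 : ℝ) 1, ∀ x y, dist x y ≤ ε → dist (G.φ t x) (G.φ t y) ≤ L * dist x y) ∧
    (∀ x (c : Ln Y), DL (G.p x) c ≤ ε → ∃ y, G.p y = c ∧ dist x y ≤ L * DL (G.p x) c) ∧
    (∀ a x, dist (G.rot a x) x ≤ L * ‖op a - op 1‖) ∧
    (∀ a x, ‖op a - op 1‖ ≤ L * dist (G.rot a x) x) := by
  obtain ⟨L₀, h0⟩ := speed G
  obtain ⟨R, hR⟩ := rot_bdd G
  obtain ⟨ε₁, hε₁, L₁, h1⟩ := F.lip
  obtain ⟨ε₂, hε₂, L₂, h2⟩ := F.near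
  obtain ⟨ε₃, hε₃, L₃, h3⟩ := F.rot_up
  obtain ⟨ε₄, hε₄, L₄, h4⟩ := F.rot_low
  set L : ℝ := 1 + |L₀| + |L₁| + |L₂| + (|L₃| + |R| / ε₃) + (|L₄| + 2 / ε₄) with hL
  have p0 := abs_nonneg L₀
  have p1 := abs_nonneg L₁
  have p2 := abs_nonneg L₂
  have p3 := abs_nonneg L₃
  have p4 := abs_nonneg L₄
  have p5 : 0 ≤ |R| / ε₃ := div_nonneg (abs_nonneg _) hε₃.le
  have p6 : 0 ≤ 2 / ε₄ := div_nonneg zero_le_two hε₄.le
  refine ⟨min ε₁ ε₂, L, lt_min hε₁ hε₂, by rw [hL]; linarith, ?_, ?_, ?_, ?_, ?_⟩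
  · intro t ht x
    have := h0 t ht x
    have := le_abs_self L₀
    rw [hL]
    linarith
  · intro t ht x y hxy
    refine (h1 t ht x y (hxy.trans (min_le_left _ _))).trans ?_
    refine mul_le_mul_of_nonneg_right ?_ dist_nonneg
    have := le_abs_self L₁
    rw [hL]
    linarith
  · intro x c hc
    obtain ⟨y, hy, hy'⟩ := h2 x c (hc.trans (min_le_right _ _))
    refine ⟨y, hy, hy'.trans ?_⟩
    refine mul_le_mul_of_nonneg_right ?_ (DL_nonneg _ _)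
    have := le_abs_self L₂
    rw [hL]
    linarith
  · intro a x
    rcases le_or_gt ‖op a - op 1‖ ε₃ with h | h
    · refine (h3 a x h).trans (mul_le_mul_of_nonneg_right ?_ (norm_nonneg _))
      have := le_abs_self L₃
      rw [hL]
      linarith
    · have h5 : |R| ≤ |R| / ε₃ * ‖op a - op 1‖ := by
        rw [div_mul_eq_mul_div, le_div_iff₀ hε₃]
        exact mul_le_mul_of_nonneg_left h.le (abs_nonneg _)
      refine (hR a x).trans ((le_abs_self R).trans (h5.trans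
        (mul_le_mul_of_nonneg_right ?_ (norm_nonneg _))))
      rw [hL]
      linarith
  · intro a x
    rcases le_or_gt (dist (G.rot a x) x) ε₄ with h | h
    · refine (h4 a x h).trans (mul_le_mul_of_nonneg_right ?_ dist_nonneg)
      have := le_abs_self L₄
      rw [hL]
      linarith
    · have h5 : 2 ≤ 2 / ε₄ * dist (G.rot a x) x := by
        rw [div_mul_eq_mul_div, le_div_iff₀ hε₄]
        exact mul_le_mul_of_nonneg_left h.le zero_le_two
      refine (norm_op_le a).trans (h5.trans (mul_le_mul_of_nonneg_right ?_ dist_nonneg))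
      rw [hL]
      linarith

/-- 395's `FrFl` over the lines -/
def frFl (F : MF G) : FrFl X (Ln Y) where
  φ := G.φ
  φ_zero := G.φ_zero
  φ_add := G.φ_add
  rot := G.rot
  rot_one := G.rot_one
  rot_mul := G.rot_mul
  rot_φ := G.rot_φ
  p := G.p
  p_surj := G.p_surj
  p_rot := G.p_rot
  p_eq _ _ h := G.p_eq_iff.1 h
  ψ := Ln.φ
  p_φ := G.p_φ
  D := DL
  D_nonneg := DL_nonneg
  ε := F.exists_const.choose
  ε_pos := F.exists_const.choose_spec.choose_spec.1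
  L := F.exists_const.choose_spec.choose
  L_pos := F.exists_const.choose_spec.choose_spec.2.1
  speed := F.exists_const.choose_spec.choose_spec.2.2.1
  lip := F.exists_const.choose_spec.choose_spec.2.2.2.1
  near := F.exists_const.choose_spec.choose_spec.2.2.2.2.1
  rot_up := F.exists_const.choose_spec.choose_spec.2.2.2.2.2.1
  rot_low := F.exists_const.choose_spec.choose_spec.2.2.2.2.2.2

/-- **`FrLn` from `Geo`** -/
def frLn (F : MF G) : FrLn G.had Γ X where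
  S := F.frFl
  ψ_eq _ _ := rfl
  D_le _ _ := le_rfl
  φ_cont := G.φ_cont
  φ_smul g t x := G.φ_smul t g x
  rot_cont := G.rot_cont
  rot_smul := G.rot_smul
  p_cont := G.p_cont
  p_smul := G.p_smul
  cocompact := G.cocompact

/-! ### The fields of `LeafA` -/

variable (F : MF G) {o : Y}

/-- **the stable holonomy of frames** -/
def hol (ξ : Bd o) (x : X) : X := F.frLn.holf ξ x

theorem p_hol {ξ : Bd o} {x : X} (h : ξ ≠ G.ep o x) : G.p (F.hol ξ x) = G.had.hol ξ (G.p x) :=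
  F.frLn.p_holf h

theorem tendsto_hol {ξ : Bd o} {x : X} (h : ξ ≠ G.ep o x) :
    Tendsto (fun t : ℝ => dist (G.φ t x) (G.φ t (F.hol ξ x))) atTop (𝓝 0) :=
  F.frLn.tendsto_holf h

theorem eq_hol {ξ : Bd o} {x y : X} (h : ξ ≠ G.ep o x) (hp : G.p y = G.had.hol ξ (G.p x))
    (hy : Tendsto (fun t : ℝ => dist (G.φ t x) (G.φ t y)) atTop (𝓝 0)) : F.hol ξ x = y :=
  F.frLn.eq_holf h hp hy

theorem hol_em (ξ : Bd o) (x : X) (h : ξ ≠ G.ep o x) : G.em o (F.hol ξ x) = ξ :=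
  F.frLn.hol_em ξ x h

theorem hol_ep (ξ : Bd o) (x : X) (h : ξ ≠ G.ep o x) : G.ep o (F.hol ξ x) = G.ep o x :=
  F.frLn.hol_ep ξ x h

theorem hol_lp (ξ : Bd o) (x : X) (h : ξ ≠ G.ep o x) :
    G.lv o (G.flip (F.hol ξ x)) = G.lv o (G.flip x) := by
  rw [Geo.lv, Geo.lv, G.p_flip, G.p_flip]
  exact F.frLn.hol_lp ξ x h

theorem hol_self (x : X) : F.hol (G.em o x) x = x := F.frLn.hol_self x

theorem hol_hol (ξ ξ' : Bd o) (x : X) (h : ξ ≠ G.ep o x) (h' : ξ' ≠ G.ep o x) :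
    F.hol ξ' (F.hol ξ x) = F.hol ξ' x := F.frLn.hol_hol ξ ξ' x h h'

theorem hol_φ (t : ℝ) (ξ : Bd o) (x : X) (h : ξ ≠ G.ep o x) :
    F.hol ξ (G.φ t x) = G.φ t (F.hol ξ x) := F.frLn.hol_φ t ξ x h

theorem hol_rot (a : O2) (ξ : Bd o) (x : X) (h : ξ ≠ G.ep o x) :
    F.hol ξ (G.rot a x) = G.rot a (F.hol ξ x) := F.frLn.hol_rot a ξ x h

theorem hol_smul (g : Γ) (ξ : Bd o) (x : X) (h : ξ ≠ G.ep o x) :
    F.hol (act G.had o g ξ) (g • x) = g • F.hol ξ x := by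
  refine F.frLn.hol_smul_of g h ?_ (G.had.hol_smul o g h)
  change G.had.actB o g ξ ≠ G.had.ep o (g • G.p x)
  rw [← G.had.actB_ep]
  exact fun h' => h (G.had.actB_inj o g h')

theorem hol_cont : ContinuousOn (fun q : Bd o × X => F.hol q.1 q.2) {q | q.1 ≠ G.ep o q.2} :=
  F.frLn.hol_cont

theorem hol_asym (K : Set (Bd o × X)) (hK : IsCompact K) (hd : ∀ q ∈ K, q.1 ≠ G.ep o q.2)
    {χ : ℝ} (hχ : 0 < χ) (hχa : χ ≤ G.had.a) :
    ∃ C, ∀ q ∈ K, ∀ t ≥ (0 : ℝ),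
      dist (G.φ t q.2) (G.φ t (F.hol q.1 q.2)) ≤ C * Real.exp (-χ * t) :=
  F.frLn.hol_asym K hK hd hχ hχa

end MF

end Vale.Agent.P207.N3.H460
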